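import Mathlib

namespace Vale.Agent.P069

variable {X : Type*} [NormedAddCommGroup X] [NormedSpace ℝ X]

/-- `N` is a norm equivalent to the given norm of `X`. -/
def IsEquivNorm (N : Seminorm ℝ X) : Prop :=
  ∃ c C : ℝ, 0 < c ∧ ∀ x, c * ‖x‖ ≤ N x ∧ N x ≤ C * ‖x‖

/-- Closed subspaces of finite codimension. -/
def IsCof (F : Submodule ℝ X) : Prop :=
  IsClosed (F : Set X) ∧ FiniteDimensional ℝ (X ⧸ F)

/-- Asymptotic uniform convexity: the modulus is positive at every `t > 0`. -/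
def IsAUC (N : Seminorm ℝ X) : Prop :=
  ∀ t : ℝ, 0 < t → ∃ δ : ℝ, 0 < δ ∧ ∀ x, N x = 1 → ∃ F : Submodule ℝ X, IsCof F ∧
    ∀ y ∈ F, N y = 1 → δ ≤ N (x + t • y) - 1

/-- Asymptotic midpoint uniform convexity. -/
def IsAMUC (N : Seminorm ℝ X) : Prop :=
  ∀ t : ℝ, 0 < t → ∃ δ : ℝ, 0 < δ ∧ ∀ x, N x = 1 → ∃ F : Submodule ℝ X, IsCof F ∧
    ∀ y ∈ F, N y = 1 → δ ≤ max (N (x + t • y)) (N (x - t • y)) - 1

end Vale.Agent.P069
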