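import Mathlib

open Finset

namespace Vale.Agent.P069

variable {E : Type*} [NormedAddCommGroup E] [NormedSpace ℝ E] {ι : Type*}

structure Dec (P : ι → E →L[ℝ] E) (Q : E →L[ℝ] E) (c : ℝ) : Prop where
  c0 : 0 ≤ c
  fin : ∀ u, ∀ ε > 0, ∃ s₀ : Finset ι, ∀ s, s₀ ⊆ s → ‖Q u - ∑ i ∈ s, P i u‖ ≤ ε
  low : ∀ u (s : Finset ι), ∑ i ∈ s, ‖P i u‖ ^ 2 ≤ c ^ 2 * ‖u‖ ^ 2
  up : ∀ (w : ι → E) (s : Finset ι), ‖∑ i ∈ s, P i (w i)‖ ^ 2 ≤ c ^ 2 * ∑ i ∈ s, ‖w i‖ ^ 2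
  idem : ∀ i u, P i (P i u) = P i u

noncomputable def adjt (T : E →L[ℝ] E) : StrongDual ℝ E →L[ℝ] StrongDual ℝ E :=
  (ContinuousLinearMap.compL ℝ E E ℝ).flip T

@[simp] theorem adjt_apply (T : E →L[ℝ] E) (x : StrongDual ℝ E) (u : E) :
    adjt T x u = x (T u) := rfl

theorem exists_near_norm (f : StrongDual ℝ E) {θ : ℝ} (h0 : 0 ≤ θ) (h1 : θ < 1) :
    ∃ w : E, ‖w‖ ≤ ‖f‖ ∧ θ * ‖f‖ ^ 2 ≤ f w := by
  rcases eq_or_lt_of_le (norm_nonneg f) with h | h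
  · exact ⟨0, by simp, by rw [← h]; simp⟩
  · obtain ⟨x, hx, hfx⟩ := f.exists_lt_apply_of_lt_opNorm (r := θ * ‖f‖) (by nlinarith)
    rcases le_total 0 (f x) with hp | hp
    · refine ⟨‖f‖ • x, ?_, ?_⟩
      · rw [norm_smul, norm_norm]
        nlinarith
      · rw [Real.norm_of_nonneg hp] at hfx
        rw [map_smul, smul_eq_mul]
        nlinarith
    · refine ⟨-(‖f‖ • x), ?_, ?_⟩
      · rw [norm_neg, norm_smul, norm_norm]
        nlinarith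
      · rw [Real.norm_of_nonpos hp] at hfx
        rw [map_neg, map_smul, smul_eq_mul]
        nlinarith

theorem cs_bound (s : Finset ι) (a b : ι → ℝ) {A B : ℝ} (hA : 0 ≤ A) (hB : 0 ≤ B)
    (ha : ∑ i ∈ s, a i ^ 2 ≤ A ^ 2) (hb : ∑ i ∈ s, b i ^ 2 ≤ B ^ 2) :
    |∑ i ∈ s, a i * b i| ≤ A * B := by
  have h1 := Finset.sum_mul_sq_le_sq_mul_sq s a b
  have h2 : (∑ i ∈ s, a i ^ 2) * ∑ i ∈ s, b i ^ 2 ≤ A ^ 2 * B ^ 2 :=
    mul_le_mul ha hb (Finset.sum_nonneg fun _ _ => sq_nonneg _) (sq_nonneg _)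
  refine abs_le_of_sq_le_sq ?_ (mul_nonneg hA hB)
  rw [mul_pow]
  exact h1.trans h2

theorem Dec.low_dual {P : ι → E →L[ℝ] E} {Q : E →L[ℝ] E} {c : ℝ} (h : Dec P Q c)
    (x : StrongDual ℝ E) (s : Finset ι) :
    ∑ i ∈ s, ‖adjt (P i) x‖ ^ 2 ≤ c ^ 2 * ‖x‖ ^ 2 := by
  obtain ⟨A, hA⟩ : ∃ A, A = ∑ i ∈ s, ‖adjt (P i) x‖ ^ 2 := ⟨_, rfl⟩
  rw [← hA]
  have hA0 : 0 ≤ A := hA ▸ Finset.sum_nonneg fun _ _ => sq_nonneg _
  have key : ∀ θ : ℝ, 0 ≤ θ → θ < 1 → θ ^ 2 * A ≤ c ^ 2 * ‖x‖ ^ 2 := by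
    intro θ h0 h1
    choose w hw1 hw2 using fun i => exists_near_norm (adjt (P i) x) h0 h1
    have e1 : θ * A ≤ x (∑ i ∈ s, P i (w i)) := by
      rw [hA, Finset.mul_sum, map_sum]
      exact Finset.sum_le_sum fun i _ => hw2 i
    have e2 : ‖∑ i ∈ s, P i (w i)‖ ^ 2 ≤ c ^ 2 * A := by
      refine (h.up w s).trans (mul_le_mul_of_nonneg_left ?_ (sq_nonneg _))
      rw [hA]
      exact Finset.sum_le_sum fun i _ => pow_le_pow_left₀ (norm_nonneg _) (hw1 i) 2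
    have e3 := x.le_opNorm (∑ i ∈ s, P i (w i))
    have e4 : θ * A ≤ ‖x‖ * ‖∑ i ∈ s, P i (w i)‖ :=
      e1.trans ((le_abs_self _).trans e3)
    have e5 : (θ * A) ^ 2 ≤ ‖x‖ ^ 2 * (c ^ 2 * A) := by
      calc (θ * A) ^ 2 ≤ (‖x‖ * ‖∑ i ∈ s, P i (w i)‖) ^ 2 :=
            pow_le_pow_left₀ (mul_nonneg h0 hA0) e4 2
        _ = ‖x‖ ^ 2 * ‖∑ i ∈ s, P i (w i)‖ ^ 2 := by ring
        _ ≤ _ := mul_le_mul_of_nonneg_left e2 (sq_nonneg _)
    rcases eq_or_lt_of_le hA0 with h2 | h2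
    · rw [← h2, mul_zero]; positivity
    · have : (θ ^ 2 * A) * A ≤ (c ^ 2 * ‖x‖ ^ 2) * A := by nlinarith
      exact le_of_mul_le_mul_right this h2
  have hc : Filter.Tendsto (fun θ : ℝ => θ ^ 2 * A) (nhdsWithin 1 (Set.Iio 1)) (nhds A) := by
    have : Filter.Tendsto (fun θ : ℝ => θ ^ 2 * A) (nhds 1) (nhds (1 ^ 2 * A)) :=
      ((continuous_pow 2).mul continuous_const).tendsto 1
    rw [one_pow, one_mul] at this
    exact this.mono_left nhdsWithin_le_nhds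
  refine le_of_tendsto hc ?_
  filter_upwards [Ioo_mem_nhdsLT (show (0 : ℝ) < 1 by norm_num)] with θ hθ
  exact key θ hθ.1.le hθ.2

theorem Dec.dual {P : ι → E →L[ℝ] E} {Q : E →L[ℝ] E} {c : ℝ} (h : Dec P Q c) :
    Dec (fun i => adjt (P i)) (adjt Q) c := by
  classical
  have hc := h.c0
  refine ⟨hc, fun x ε hε => ?_, h.low_dual, fun w s => ?_, fun i x => ?_⟩
  · have hsum : Summable fun i => ‖adjt (P i) x‖ ^ 2 :=
      summable_of_sum_le (fun _ => sq_nonneg _) (h.low_dual x)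
    obtain ⟨η, hη⟩ : ∃ η, η = ε / (c + 1) := ⟨_, rfl⟩
    have hη0 : 0 < η := by rw [hη]; positivity
    obtain ⟨s₀, hs₀⟩ := (summable_iff_vanishing_norm.mp hsum) (η ^ 2) (by positivity)
    refine ⟨s₀, fun s hs => ?_⟩
    refine ContinuousLinearMap.opNorm_le_bound _ hε.le fun u => ?_
    refine le_of_forall_pos_le_add fun δ hδ => ?_
    obtain ⟨s₁, hs₁⟩ := h.fin u (δ / (‖x‖ + 1)) (by positivity)
    have e1 := hs₁ (s₁ ∪ s) Finset.subset_union_left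
    have e2 : (adjt Q x - ∑ i ∈ s, adjt (P i) x) u =
        x (Q u - ∑ i ∈ s₁ ∪ s, P i u) + ∑ i ∈ s₁ \ s, adjt (P i) x (P i u) := by
      rw [ContinuousLinearMap.sub_apply, ContinuousLinearMap.sum_apply, map_sub, map_sum,
        ← Finset.sdiff_union_self_eq_union, Finset.sum_union Finset.sdiff_disjoint]
      simp only [adjt_apply, h.idem]
      ring
    have e3 : |x (Q u - ∑ i ∈ s₁ ∪ s, P i u)| ≤ δ := by
      have := x.le_opNorm (Q u - ∑ i ∈ s₁ ∪ s, P i u)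
      rw [Real.norm_eq_abs] at this
      have e4 : ‖x‖ * (δ / (‖x‖ + 1)) ≤ δ := by
        rw [← mul_div_assoc, div_le_iff₀ (by positivity)]
        nlinarith
      exact this.trans ((mul_le_mul_of_nonneg_left e1 (norm_nonneg _)).trans e4)
    have e4 : |∑ i ∈ s₁ \ s, adjt (P i) x (P i u)| ≤ η * (c * ‖u‖) := by
      have a1 := hs₀ (s₁ \ s) (Finset.disjoint_of_subset_right hs Finset.sdiff_disjoint)
      rw [Real.norm_eq_abs] at a1
      have a2 := cs_bound (s₁ \ s) (fun i => ‖adjt (P i) x‖) (fun i => ‖P i u‖) hη0.le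
        (mul_nonneg hc (norm_nonneg u)) ((le_abs_self _).trans a1.le)
        (by rw [mul_pow]; exact h.low u _)
      refine (Finset.abs_sum_le_sum_abs _ _).trans (le_trans ?_ ((le_abs_self _).trans a2))
      exact Finset.sum_le_sum fun i _ => (adjt (P i) x).le_opNorm _
    have e5 : η * (c * ‖u‖) ≤ ε * ‖u‖ := by
      rw [← mul_assoc]
      refine mul_le_mul_of_nonneg_right ?_ (norm_nonneg _)
      rw [hη, div_mul_eq_mul_div, div_le_iff₀ (by positivity)]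
      nlinarith
    rw [e2, Real.norm_eq_abs]
    exact (abs_add_le _ _).trans (by linarith)
  · obtain ⟨B, hB⟩ : ∃ B, B = Real.sqrt (∑ i ∈ s, ‖w i‖ ^ 2) := ⟨_, rfl⟩
    have hB0 : 0 ≤ B := hB ▸ Real.sqrt_nonneg _
    have hB2 : B ^ 2 = ∑ i ∈ s, ‖w i‖ ^ 2 := by
      rw [hB, Real.sq_sqrt (Finset.sum_nonneg fun _ _ => sq_nonneg _)]
    rw [← hB2, ← mul_pow]
    refine pow_le_pow_left₀ (norm_nonneg _) ?_ 2
    refine ContinuousLinearMap.opNorm_le_bound _ (mul_nonneg hc hB0) fun u => ?_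
    have a2 := cs_bound s (fun i => ‖w i‖) (fun i => ‖P i u‖) hB0
      (mul_nonneg hc (norm_nonneg u)) hB2.ge (by rw [mul_pow]; exact h.low u _)
    rw [ContinuousLinearMap.sum_apply, Real.norm_eq_abs]
    refine (Finset.abs_sum_le_sum_abs _ _).trans (le_trans ?_ ((le_abs_self _).trans
      (a2.trans (le_of_eq (by ring)))))
    exact Finset.sum_le_sum fun i _ => (w i).le_opNorm _
  · ext u
    simp [h.idem]

theorem Dec.mem_closure {P : ι → E →L[ℝ] E} {Q : E →L[ℝ] E} {c : ℝ} (h : Dec P Q c)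
    (M : Submodule ℝ E) (u : E) (hu : ∀ i, P i u ∈ M.topologicalClosure) :
    Q u ∈ M.topologicalClosure := by
  have hcl : IsClosed (M.topologicalClosure : Set E) := M.isClosed_topologicalClosure
  have : Q u ∈ closure (M.topologicalClosure : Set E) := by
    rw [Metric.mem_closure_iff]
    intro ε hε
    obtain ⟨s, hs⟩ := h.fin u (ε / 2) (by linarith)
    refine ⟨∑ i ∈ s, P i u, Submodule.sum_mem _ fun i _ => hu i, ?_⟩
    rw [dist_eq_norm]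
    exact (hs s Finset.Subset.rfl).trans_lt (by linarith)
  exact hcl.closure_subset this

end Vale.Agent.P069
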