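import Mathlib
import Vale.Agent.P069.Dec

open Finset

namespace Vale.Agent.P069

def rt (t : List ℕ) : ℕ := t.getLastD 0

def Valid (t : List ℕ) : Prop := t ≠ [] ∧ t.length ≤ rt t + 1

abbrev Nd := {t : List ℕ // Valid t}

def JE := Nd →₀ ℝ

noncomputable instance : AddCommGroup JE := inferInstanceAs (AddCommGroup (Nd →₀ ℝ))
noncomputable instance : Module ℝ JE := inferInstanceAs (Module ℝ (Nd →₀ ℝ))

def JE.fs (u : JE) : Nd →₀ ℝ := u
def JE.mk (u : Nd →₀ ℝ) : JE := u

@[simp] theorem fs_mk (u : Nd →₀ ℝ) : (JE.mk u).fs = u := rfl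
@[simp] theorem fs_add (u v : JE) : (u + v).fs = u.fs + v.fs := rfl
@[simp] theorem fs_sub (u v : JE) : (u - v).fs = u.fs - v.fs := rfl
@[simp] theorem fs_neg (u : JE) : (-u).fs = -u.fs := rfl
@[simp] theorem fs_zero : (0 : JE).fs = 0 := rfl
@[simp] theorem fs_smul (c : ℝ) (u : JE) : (c • u).fs = c • u.fs := rfl

theorem JE.ext {u v : JE} (h : ∀ t, u.fs t = v.fs t) : u = v := Finsupp.ext h

theorem fs_sum {ι : Type*} (s : Finset ι) (w : ι → JE) (t : Nd) :
    (∑ i ∈ s, w i).fs t = ∑ i ∈ s, (w i).fs t := by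
  classical
  induction s using Finset.induction_on with
  | empty => simp
  | insert a s ha ih => rw [Finset.sum_insert ha, Finset.sum_insert ha, fs_add, Finsupp.add_apply, ih]

theorem rt_cons (k : ℕ) {p : List ℕ} (hp : p ≠ []) : rt (k :: p) = rt p := by
  cases p with
  | nil => exact absurd rfl hp
  | cons a p => simp [rt, List.getLastD]

theorem rt_suffix {s t : List ℕ} (h : s <:+ t) (hs : s ≠ []) : rt s = rt t := by
  induction t with
  | nil => exact absurd (List.eq_nil_of_suffix_nil h) hs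
  | cons k p ih =>
    rcases List.suffix_cons_iff.mp h with rfl | h'
    · rfl
    · have hp : p ≠ [] := by
        rintro rfl
        exact hs (List.eq_nil_of_suffix_nil h')
      rw [rt_cons k hp, ih h']

def In (s : List ℕ) (S : List ℕ × List ℕ) : Prop := S.1 <:+ s ∧ S.1 ≠ s ∧ s <:+ S.2

open Classical in
noncomputable def pot (u : JE) (b : List ℕ) : ℝ :=
  u.fs.sum fun t c => if t.1 <:+ b then c else 0

open Classical in
theorem pot_eq (u : JE) (b : List ℕ) {s : Finset Nd} (hs : u.fs.support ⊆ s) :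
    pot u b = ∑ t ∈ s, if t.1 <:+ b then u.fs t else 0 := by
  unfold pot
  exact Finsupp.sum_of_support_subset _ hs _ (fun _ _ => by simp)

theorem pot_add (u v : JE) (b : List ℕ) : pot (u + v) b = pot u b + pot v b := by
  classical
  rw [pot_eq (u + v) b (s := u.fs.support ∪ v.fs.support) Finsupp.support_add,
    pot_eq u b Finset.subset_union_left, pot_eq v b Finset.subset_union_right,
    ← Finset.sum_add_distrib]
  refine Finset.sum_congr rfl fun t _ => ?_
  split_ifs <;> simp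

theorem pot_smul (c : ℝ) (u : JE) (b : List ℕ) : pot (c • u) b = c * pot u b := by
  rw [pot_eq (c • u) b (s := u.fs.support) Finsupp.support_smul, pot_eq u b Finset.Subset.rfl,
    Finset.mul_sum]
  refine Finset.sum_congr rfl fun t _ => ?_
  split_ifs <;> simp

theorem pot_nil (u : JE) : pot u [] = 0 := by
  rw [pot_eq u [] Finset.Subset.rfl]
  refine Finset.sum_eq_zero fun t _ => if_neg fun h => t.2.1 (List.eq_nil_of_suffix_nil h)

open Classical in
theorem pot_cons (u : JE) (k : ℕ) (p : List ℕ) :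
    pot u (k :: p) = (if h : Valid (k :: p) then u.fs ⟨_, h⟩ else 0) + pot u p := by
  have key : ∀ t : Nd, (if t.1 <:+ k :: p then u.fs t else 0) =
      (if t.1 = k :: p then u.fs t else 0) + if t.1 <:+ p then u.fs t else 0 := by
    intro t
    by_cases h1 : t.1 = k :: p
    · have h2 : ¬ t.1 <:+ p := fun h => by
        have := h.length_le
        rw [h1] at this
        simp at this
      rw [if_pos h1, if_neg h2, if_pos (h1 ▸ List.suffix_refl _), add_zero]
    · rw [if_neg h1, zero_add]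
      by_cases h2 : t.1 <:+ p
      · rw [if_pos h2, if_pos (List.suffix_cons_iff.mpr (Or.inr h2))]
      · rw [if_neg h2, if_neg fun h => (List.suffix_cons_iff.mp h).elim h1 h2]
  rw [pot_eq u _ Finset.Subset.rfl, pot_eq u p Finset.Subset.rfl]
  simp only [key, Finset.sum_add_distrib]
  congr 1
  split_ifs with h
  · rw [Finset.sum_eq_single (⟨_, h⟩ : Nd)]
    · simp
    · intro t _ ht
      exact if_neg fun h' => ht (Subtype.ext h')
    · intro ht
      simpa using ht
  · exact Finset.sum_eq_zero fun t _ => if_neg fun (h' : t.1 = k :: p) => h (h' ▸ t.2)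

noncomputable def val (u : JE) (S : List ℕ × List ℕ) : ℝ := pot u S.2 - pot u S.1

theorem val_add (u v : JE) (S) : val (u + v) S = val u S + val v S := by
  simp only [val, pot_add]; ring

theorem val_smul (c : ℝ) (u : JE) (S) : val (c • u) S = c * val u S := by
  simp only [val, pot_smul]; ring

open Classical in
theorem val_eq (u : JE) {S : List ℕ × List ℕ} (hS : S.1 <:+ S.2) {s : Finset Nd}
    (hs : u.fs.support ⊆ s) : val u S = ∑ t ∈ s, if In t.1 S then u.fs t else 0 := by
  rw [val, pot_eq u _ hs, pot_eq u _ hs, ← Finset.sum_sub_distrib]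
  refine Finset.sum_congr rfl fun t _ => ?_
  by_cases h1 : t.1 <:+ S.1
  · have h3 : ¬ In t.1 S := fun h => h.2.1 (h.1.eq_of_length_le h1.length_le)
    rw [if_pos h1, if_pos (h1.trans hS), if_neg h3, sub_self]
  · rw [if_neg h1, sub_zero]
    by_cases h2 : t.1 <:+ S.2
    · have h3 : In t.1 S := ⟨(List.suffix_or_suffix_of_suffix hS h2).resolve_right h1,
        fun h => h1 (h ▸ List.suffix_refl _), h2⟩
      rw [if_pos h2, if_pos h3]
    · rw [if_neg h2, if_neg fun h => h2 h.2.2]

def Adm {ι : Type*} (s : Finset ι) (f : ι → List ℕ × List ℕ) : Prop :=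
  (∀ i ∈ s, (f i).1 <:+ (f i).2) ∧ ∀ i ∈ s, ∀ j ∈ s, ∀ t, In t (f i) → In t (f j) → i = j

theorem sum_in_le {ι : Type*} {s : Finset ι} {f : ι → List ℕ × List ℕ} (h : Adm s f)
    (r : Finset Nd) (g : Nd → ℝ) (hg : ∀ t, 0 ≤ g t) [∀ t S, Decidable (In t S)] :
    ∑ i ∈ s, ∑ t ∈ r, (if In t.1 (f i) then g t else 0) ≤ ∑ t ∈ r, g t := by
  rw [Finset.sum_comm]
  refine Finset.sum_le_sum fun t _ => ?_
  by_cases hx : ∃ i ∈ s, In t.1 (f i)
  · obtain ⟨i, hi, hti⟩ := hx
    rw [Finset.sum_eq_single i]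
    · rw [if_pos hti]
    · intro j hj hji
      exact if_neg fun h' => hji (h.2 j hj i hi _ h' hti)
    · intro h'
      exact absurd hi h'
  · rw [Finset.sum_eq_zero fun i hi => if_neg fun h' => hx ⟨i, hi, h'⟩]
    exact hg t

theorem sq_le_l1 (u : JE) {ι : Type*} {s : Finset ι} {f : ι → List ℕ × List ℕ} (h : Adm s f) :
    ∑ i ∈ s, val u (f i) ^ 2 ≤ (∑ t ∈ u.fs.support, |u.fs t|) ^ 2 := by
  classical
  have h1 : ∑ i ∈ s, |val u (f i)| ≤ ∑ t ∈ u.fs.support, |u.fs t| := by
    refine le_trans (Finset.sum_le_sum fun i hi => ?_)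
      (sum_in_le h u.fs.support (fun t => |u.fs t|) fun t => abs_nonneg _)
    rw [val_eq u (h.1 i hi) Finset.Subset.rfl]
    refine (Finset.abs_sum_le_sum_abs _ _).trans (Finset.sum_le_sum fun t _ => ?_)
    split_ifs <;> simp
  calc ∑ i ∈ s, val u (f i) ^ 2 = ∑ i ∈ s, |val u (f i)| ^ 2 := by simp
    _ ≤ (∑ i ∈ s, |val u (f i)|) ^ 2 := Finset.sum_sq_le_sq_sum_of_nonneg fun _ _ => abs_nonneg _
    _ ≤ _ := pow_le_pow_left₀ (Finset.sum_nonneg fun _ _ => abs_nonneg _) h1 2

noncomputable def jn (u : JE) : ℝ :=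
  sSup {r | ∃ s : Finset (List ℕ × List ℕ), Adm s id ∧ r = Real.sqrt (∑ S ∈ s, val u S ^ 2)}

theorem jn_le {u : JE} {R : ℝ} (hR : 0 ≤ R)
    (h : ∀ s : Finset (List ℕ × List ℕ), Adm s id → ∑ S ∈ s, val u S ^ 2 ≤ R ^ 2) : jn u ≤ R := by
  refine Real.sSup_le ?_ hR
  rintro _ ⟨s, hs, rfl⟩
  exact Real.sqrt_le_iff.mpr ⟨hR, h s hs⟩

theorem jn_nonneg (u : JE) : 0 ≤ jn u := by
  refine Real.sSup_nonneg ?_
  rintro _ ⟨s, hs, rfl⟩
  exact Real.sqrt_nonneg _

theorem le_jn (u : JE) {ι : Type*} {s : Finset ι} {f : ι → List ℕ × List ℕ} (h : Adm s f) :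
    ∑ i ∈ s, val u (f i) ^ 2 ≤ jn u ^ 2 := by
  classical
  have hb : BddAbove {r | ∃ s : Finset (List ℕ × List ℕ), Adm s id ∧
      r = Real.sqrt (∑ S ∈ s, val u S ^ 2)} := by
    refine ⟨∑ t ∈ u.fs.support, |u.fs t|, ?_⟩
    rintro _ ⟨s, hs, rfl⟩
    exact Real.sqrt_le_iff.mpr ⟨Finset.sum_nonneg fun _ _ => abs_nonneg _, sq_le_l1 u hs⟩
  obtain ⟨s', hs'⟩ : ∃ s', s' = s.filter fun i => (f i).1 ≠ (f i).2 := ⟨_, rfl⟩
  have hinj : Set.InjOn f s' := by
    intro i hi j hj hij
    rw [hs', Finset.coe_filter] at hi hj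
    exact h.2 i hi.1 j hj.1 (f i).2 ⟨h.1 i hi.1, hi.2, List.suffix_refl _⟩
      (by rw [← hij]; exact ⟨h.1 i hi.1, hi.2, List.suffix_refl _⟩)
  have e1 : ∑ i ∈ s, val u (f i) ^ 2 = ∑ S ∈ s'.image f, val u S ^ 2 := by
    rw [Finset.sum_image hinj, hs', Finset.sum_filter_of_ne]
    intro i _ hne he
    apply hne
    simp [val, he]
  have hadm : Adm (s'.image f) id := by
    constructor
    · intro S hS
      obtain ⟨i, hi, rfl⟩ := Finset.mem_image.mp hS
      rw [hs'] at hi
      exact h.1 i (Finset.mem_filter.mp hi).1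
    · intro S hS S' hS' t h1 h2
      obtain ⟨i, hi, rfl⟩ := Finset.mem_image.mp hS
      obtain ⟨j, hj, rfl⟩ := Finset.mem_image.mp hS'
      rw [hs'] at hi hj
      rw [h.2 i (Finset.mem_filter.mp hi).1 j (Finset.mem_filter.mp hj).1 t h1 h2]
  rw [e1]
  exact (Real.sqrt_le_left (jn_nonneg u)).mp (le_csSup hb ⟨_, hadm, rfl⟩)

theorem val_single (u : JE) (t : Nd) : val u (t.1.tail, t.1) = u.fs t := by
  obtain ⟨t, ht⟩ := t
  cases t with
  | nil => exact absurd rfl ht.1
  | cons k p =>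
    simp only [val, List.tail_cons]
    rw [pot_cons, dif_pos ht]
    ring

theorem in_single {t : Nd} {s : List ℕ} (h : In s (t.1.tail, t.1)) : s = t.1 := by
  obtain ⟨t, ht⟩ := t
  cases t with
  | nil => exact absurd rfl ht.1
  | cons k p =>
    obtain ⟨h1, h2, h3⟩ := h
    rcases List.suffix_cons_iff.mp h3 with h4 | h4
    · exact h4
    · exact absurd (h1.eq_of_length_le h4.length_le) h2

theorem l2_le_jn (u : JE) (s : Finset Nd) : ∑ t ∈ s, u.fs t ^ 2 ≤ jn u ^ 2 := by
  have := le_jn u (s := s) (f := fun t : Nd => (t.1.tail, t.1)) ⟨fun t _ => List.tail_suffix _,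
    fun i _ j _ t h1 h2 => Subtype.ext ((in_single h1).symm.trans (in_single h2))⟩
  simpa only [val_single] using this

theorem jn_add (u v : JE) : jn (u + v) ≤ jn u + jn v := by
  refine jn_le (add_nonneg (jn_nonneg _) (jn_nonneg _)) fun s hs => ?_
  have h1 := le_jn u hs
  have h2 := le_jn v hs
  have h3 := cs_bound s (val u) (val v) (jn_nonneg _) (jn_nonneg _) h1 h2
  have h4 : ∑ S ∈ s, val (u + v) S ^ 2 = ∑ S ∈ s, val u S ^ 2 + 2 * ∑ S ∈ s, val u S * val v S +
      ∑ S ∈ s, val v S ^ 2 := by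
    rw [Finset.mul_sum, ← Finset.sum_add_distrib, ← Finset.sum_add_distrib]
    exact Finset.sum_congr rfl fun S _ => by rw [val_add]; ring
  simp only [id] at h1 h2
  have h5 := le_abs_self (∑ S ∈ s, val u S * val v S)
  nlinarith

theorem jn_smul (c : ℝ) (u : JE) : jn (c • u) ≤ |c| * jn u := by
  refine jn_le (mul_nonneg (abs_nonneg _) (jn_nonneg _)) fun s hs => ?_
  have h1 := le_jn u hs
  simp only [id] at h1
  simp only [val_smul, mul_pow, sq_abs, ← Finset.mul_sum]
  exact mul_le_mul_of_nonneg_left h1 (sq_nonneg _)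

noncomputable instance : NormedAddCommGroup JE :=
  AddGroupNorm.toNormedAddCommGroup
    { toFun := jn
      map_zero' := by
        have := jn_smul 0 0
        rw [zero_smul, abs_zero, zero_mul] at this
        exact le_antisymm this (jn_nonneg _)
      add_le' := jn_add
      neg' := fun u => by
        have h : ∀ u : JE, jn (-u) ≤ jn u := fun u => by
          have := jn_smul (-1) u
          simpa using this
        have := h (-u)
        rw [neg_neg] at this
        exact le_antisymm (h u) this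
      eq_zero_of_map_eq_zero' := fun u hu => JE.ext fun t => by
        have := l2_le_jn u {t}
        rw [hu, Finset.sum_singleton] at this
        simpa using this }

theorem norm_eq (u : JE) : ‖u‖ = jn u := rfl

noncomputable instance : NormedSpace ℝ JE := ⟨fun c u => jn_smul c u⟩

end Vale.Agent.P069
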