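import Mathlib
import Vale.Agent.P069.Tree

open Finset

namespace Vale.Agent.P069

open Classical in
noncomputable def filtL (p : Nd → Prop) : JE →ₗ[ℝ] JE where
  toFun u := JE.mk (u.fs.filter p)
  map_add' u v := JE.ext fun t => by simp [Finsupp.filter_add]
  map_smul' c u := JE.ext fun t => by simp [Finsupp.filter_smul]

open Classical in
theorem filtL_apply (p : Nd → Prop) (u : JE) (t : Nd) :
    (filtL p u).fs t = if p t then u.fs t else 0 := by
  simp [filtL, Finsupp.filter_apply]

theorem filtL_support (p : Nd → Prop) (u : JE) : (filtL p u).fs.support ⊆ u.fs.support := by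
  intro t ht
  rw [Finsupp.mem_support_iff] at ht ⊢
  rw [filtL_apply] at ht
  intro h
  apply ht
  split_ifs <;> simp [h]

theorem In.ne_nil {t : List ℕ} {S : List ℕ × List ℕ} (h : In t S) : t ≠ [] := by
  rintro rfl
  exact h.2.1 (List.eq_nil_of_suffix_nil h.1)

theorem In.rt_eq {t : List ℕ} {S : List ℕ × List ℕ} (h : In t S) : rt t = rt S.2 :=
  rt_suffix h.2.2 h.ne_nil

theorem val_tree (n : ℕ) (u : JE) {S : List ℕ × List ℕ} (hS : S.1 <:+ S.2) :
    val (filtL (fun t => rt t.1 = n) u) S = if rt S.2 = n then val u S else 0 := by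
  rw [val_eq _ hS (filtL_support _ u), val_eq u hS Finset.Subset.rfl]
  split_ifs with h
  · refine Finset.sum_congr rfl fun t _ => ?_
    split_ifs with h1
    · rw [filtL_apply, if_pos (h1.rt_eq.trans h)]
    · rfl
  · refine Finset.sum_eq_zero fun t _ => ?_
    split_ifs with h1
    · rw [filtL_apply, if_neg (fun h' => h (h1.rt_eq.symm.trans h'))]
    · rfl

theorem norm_le_of_val {u v : JE} (h : ∀ S : List ℕ × List ℕ, S.1 <:+ S.2 → |val u S| ≤ |val v S|) :
    ‖u‖ ≤ ‖v‖ := by
  refine jn_le (norm_nonneg v) fun s hs => le_trans (Finset.sum_le_sum fun S hS => ?_) (le_jn v hs)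
  exact sq_le_sq.mpr (h S (hs.1 S hS))

noncomputable def treeP (n : ℕ) : JE →L[ℝ] JE :=
  (filtL fun t => rt t.1 = n).mkContinuous 1 fun u => by
    rw [one_mul]
    refine norm_le_of_val fun S hS => ?_
    rw [val_tree n u hS]
    split_ifs <;> simp

theorem treeP_apply (n : ℕ) (u : JE) : treeP n u = filtL (fun t => rt t.1 = n) u := rfl

theorem abs_le_norm (u : JE) (t : Nd) : |u.fs t| ≤ ‖u‖ := by
  have := l2_le_jn u {t}
  rw [Finset.sum_singleton] at this
  exact abs_le_of_sq_le_sq this (norm_nonneg u)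

noncomputable def coord (t : Nd) : StrongDual ℝ JE :=
  LinearMap.mkContinuous
    { toFun := fun u => u.fs t, map_add' := fun u v => by simp, map_smul' := fun c u => by simp }
    1 fun u => by rw [one_mul]; exact abs_le_norm u t

@[simp] theorem coord_apply (t : Nd) (u : JE) : coord t u = u.fs t := rfl

noncomputable def ev (t : Nd) : JE := JE.mk (Finsupp.single t 1)

theorem norm_ev (t : Nd) : ‖ev t‖ ≤ 1 := by
  refine jn_le zero_le_one fun s hs => (sq_le_l1 _ hs).trans ?_
  simp [ev, Finsupp.support_single t one_ne_zero]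

theorem val_sum {ι : Type*} (s : Finset ι) (w : ι → JE) (S : List ℕ × List ℕ) :
    val (∑ i ∈ s, w i) S = ∑ i ∈ s, val (w i) S := by
  classical
  induction s using Finset.induction_on with
  | empty => simpa using val_smul 0 0 S
  | insert a s ha ih => rw [Finset.sum_insert ha, Finset.sum_insert ha, val_add, ih]

theorem exists_near (u : JE) {ε : ℝ} (hε : 0 < ε) : ∃ s : Finset (List ℕ × List ℕ), Adm s id ∧
    ‖u‖ ^ 2 ≤ ∑ S ∈ s, val u S ^ 2 + ε := by
  by_contra hn
  push Not at hn
  have h0 := hn ∅ ⟨by simp, by simp⟩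
  rw [Finset.sum_empty, zero_add] at h0
  have h1 : ‖u‖ ≤ Real.sqrt (‖u‖ ^ 2 - ε) := jn_le (Real.sqrt_nonneg _) fun s hs => by
    rw [Real.sq_sqrt (by linarith)]
    linarith [hn s hs]
  have := pow_le_pow_left₀ (norm_nonneg u) h1 2
  rw [Real.sq_sqrt (by linarith)] at this
  linarith

theorem Adm.filter {s : Finset (List ℕ × List ℕ)} (h : Adm s id) (p : List ℕ × List ℕ → Prop)
    [DecidablePred p] : Adm (s.filter p) id :=
  ⟨fun i hi => h.1 i (Finset.mem_filter.mp hi).1, fun i hi j hj =>
    h.2 i (Finset.mem_filter.mp hi).1 j (Finset.mem_filter.mp hj).1⟩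

theorem dec_tree : Dec treeP (ContinuousLinearMap.id ℝ JE) 1 := by
  classical
  refine ⟨zero_le_one, fun u ε hε => ⟨u.fs.support.image fun t => rt t.1, fun s hs => ?_⟩,
    fun u s => ?_, fun w s => ?_, fun n u => ?_⟩
  · have : ContinuousLinearMap.id ℝ JE u = ∑ n ∈ s, treeP n u := JE.ext fun t => by
      rw [fs_sum]
      simp only [treeP_apply, filtL_apply, ContinuousLinearMap.id_apply]
      rw [Finset.sum_eq_single (rt t.1)]
      · simp
      · intro b _ hb
        exact if_neg (Ne.symm hb)
      · intro h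
        rw [if_pos rfl]
        by_contra h'
        exact h (hs (Finset.mem_image.mpr ⟨t, Finsupp.mem_support_iff.mpr h', rfl⟩))
    rw [this, sub_self, norm_zero]
    exact hε.le
  · rw [one_pow, one_mul]
    refine le_of_forall_pos_le_add fun ε hε => ?_
    choose F hF1 hF2 using fun n => exists_near (treeP n u) (ε := ε / (s.card + 1)) (by positivity)
    have h1 := le_jn u (s := s.sigma fun n => (F n).filter fun S => rt S.2 = n)
      (f := fun z => z.2) ⟨fun z hz => (hF1 z.1).1 _
        (Finset.mem_filter.mp (Finset.mem_sigma.mp hz).2).1, by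
      rintro ⟨n, S⟩ hz ⟨n', S'⟩ hz' t h1 h2
      have a1 := Finset.mem_filter.mp (Finset.mem_sigma.mp hz).2
      have a2 := Finset.mem_filter.mp (Finset.mem_sigma.mp hz').2
      have e : n = n' := a1.2.symm.trans (h1.rt_eq.symm.trans (h2.rt_eq.trans a2.2))
      subst e
      have := (hF1 n).2 S a1.1 S' a2.1 t h1 h2
      subst this
      rfl⟩
    rw [Finset.sum_sigma] at h1
    have h2 : ∀ n ∈ s, ‖treeP n u‖ ^ 2 ≤
        ∑ S ∈ (F n).filter (fun S => rt S.2 = n), val u S ^ 2 + ε / (s.card + 1) := by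
      intro n _
      refine (hF2 n).trans (le_of_eq ?_)
      congr 1
      rw [Finset.sum_filter]
      refine Finset.sum_congr rfl fun S hS => ?_
      have hS' : S.1 <:+ S.2 := (hF1 n).1 S hS
      rw [treeP_apply, val_tree n u hS']
      split_ifs <;> simp
    have h3 := Finset.sum_le_sum h2
    rw [Finset.sum_add_distrib, Finset.sum_const, nsmul_eq_mul] at h3
    have h4 : (s.card : ℝ) * (ε / (s.card + 1)) ≤ ε := by
      rw [← mul_div_assoc, div_le_iff₀ (by positivity)]
      nlinarith
    rw [norm_eq u]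
    linarith
  · rw [one_pow, one_mul]
    have hnn : 0 ≤ ∑ n ∈ s, ‖w n‖ ^ 2 := Finset.sum_nonneg fun _ _ => sq_nonneg _
    refine (Real.le_sqrt (norm_nonneg _) hnn).mp (jn_le (Real.sqrt_nonneg _) fun F hF => ?_)
    rw [Real.sq_sqrt hnn]
    have h1 : ∀ S ∈ F, val (∑ n ∈ s, treeP n (w n)) S ^ 2 =
        ∑ n ∈ s, if rt S.2 = n then val (w n) S ^ 2 else 0 := by
      intro S hS
      have hS' : S.1 <:+ S.2 := hF.1 S hS
      rw [val_sum]
      simp only [treeP_apply, val_tree _ _ hS']
      rw [Finset.sum_ite_eq, Finset.sum_ite_eq]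
      split_ifs <;> simp
    rw [Finset.sum_congr rfl h1, Finset.sum_comm]
    refine Finset.sum_le_sum fun n _ => ?_
    rw [← Finset.sum_filter]
    exact le_jn (w n) (hF.filter _)
  · refine JE.ext fun t => ?_
    simp only [treeP_apply, filtL_apply]
    split_ifs <;> rfl

theorem norm_sq_le_tree (n : ℕ) (v : JE) (hv : ∀ t : Nd, rt t.1 ≠ n → v.fs t = 0) {r : Finset Nd}
    (hr : v.fs.support ⊆ r) : ‖v‖ ^ 2 ≤ (n + 1) * ∑ t ∈ r, v.fs t ^ 2 := by
  classical
  have hnn : 0 ≤ ((n : ℝ) + 1) * ∑ t ∈ r, v.fs t ^ 2 :=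
    mul_nonneg (by positivity) (Finset.sum_nonneg fun _ _ => sq_nonneg _)
  refine (Real.le_sqrt (norm_nonneg _) hnn).mp (jn_le (Real.sqrt_nonneg _) fun F hF => ?_)
  rw [Real.sq_sqrt hnn]
  refine le_trans ?_ (mul_le_mul_of_nonneg_left
    (sum_in_le hF r (fun t => v.fs t ^ 2) fun t => sq_nonneg _) (by positivity))
  rw [Finset.mul_sum]
  refine Finset.sum_le_sum fun S hS => ?_
  have hS' : S.1 <:+ S.2 := hF.1 S hS
  have e1 : val v S = ∑ t ∈ r.filter (fun t => In t.1 S ∧ rt t.1 = n), v.fs t := by
    rw [val_eq v hS' hr, Finset.sum_filter]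
    refine Finset.sum_congr rfl fun t _ => ?_
    by_cases h1 : rt t.1 = n
    · simp [h1]
    · simp [hv t h1]
  have e2 : (r.filter (fun t => In t.1 S ∧ rt t.1 = n)).card ≤ n + 1 := by
    have := Finset.card_le_card_of_injOn (s := r.filter (fun t => In t.1 S ∧ rt t.1 = n))
      (t := Finset.Icc 1 (n + 1)) (fun t : Nd => t.1.length) (fun t ht => by
        have h1 := (Finset.mem_filter.mp ht).2
        have h2 := t.2.2
        have h3 := List.length_pos_iff.mpr t.2.1
        rw [h1.2] at h2
        simp only [Finset.coe_Icc, Set.mem_Icc]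
        omega) (fun t ht t' ht' he => by
        have h1 := (Finset.mem_filter.mp ht).2.1.2.2
        have h2 := (Finset.mem_filter.mp ht').2.1.2.2
        exact Subtype.ext ((List.suffix_of_suffix_length_le h1 h2 (le_of_eq he)).eq_of_length he))
    simpa using this
  have e3 : ∑ t ∈ r.filter (fun t => In t.1 S ∧ rt t.1 = n), v.fs t ^ 2 ≤
      ∑ t ∈ r, if In t.1 (id S) then v.fs t ^ 2 else 0 := by
    rw [Finset.sum_filter]
    refine Finset.sum_le_sum fun t _ => ?_
    by_cases h1 : In t.1 S
    · rw [id, if_pos h1]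
      split_ifs
      · exact le_rfl
      · exact sq_nonneg _
    · rw [id, if_neg h1, if_neg fun h => h1 h.1]
  rw [e1]
  refine sq_sum_le_card_mul_sum_sq.trans (mul_le_mul (by exact_mod_cast e2) e3
    (Finset.sum_nonneg fun _ _ => sq_nonneg _) (by positivity))

noncomputable def ptP (n : ℕ) (t : Nd) : JE →L[ℝ] JE :=
  if rt t.1 = n then (coord t).smulRight (ev t) else 0

open Classical in
theorem ptP_apply (n : ℕ) (t : Nd) (u : JE) (t' : Nd) :
    (ptP n t u).fs t' = if t = t' then (if rt t.1 = n then u.fs t else 0) else 0 := by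
  unfold ptP
  by_cases h1 : rt t.1 = n
  · simp [h1, ev, Finsupp.single_apply]
  · simp [h1]

theorem dec_pt (n : ℕ) : Dec (ptP n) (treeP n) (n + 1) := by
  classical
  have hc : (n : ℝ) + 1 ≤ (n + 1) ^ 2 := by nlinarith [n.cast_nonneg (α := ℝ)]
  refine ⟨by positivity, fun u ε hε => ⟨u.fs.support, fun s hs => ?_⟩,
    fun u s => ?_, fun w s => ?_, fun t u => ?_⟩
  · have : treeP n u = ∑ t ∈ s, ptP n t u := JE.ext fun t => by
      rw [fs_sum]
      simp only [treeP_apply, filtL_apply, ptP_apply]
      rw [Finset.sum_ite_eq']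
      split_ifs with h h' h'
      · rfl
      · by_contra h''
        exact h' (hs (Finsupp.mem_support_iff.mpr h''))
      · rfl
      · rfl
    rw [this, sub_self, norm_zero]
    exact hε.le
  · have h1 : ∀ t ∈ s, ‖ptP n t u‖ ^ 2 ≤ u.fs t ^ 2 := by
      intro t _
      unfold ptP
      split_ifs
      · rw [ContinuousLinearMap.smulRight_apply, norm_smul, coord_apply, Real.norm_eq_abs,
          mul_pow, sq_abs]
        exact mul_le_of_le_one_right (sq_nonneg _) (pow_le_one₀ (norm_nonneg _) (norm_ev t))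
      · simp [sq_nonneg]
    have h2 := (Finset.sum_le_sum h1).trans (l2_le_jn u s)
    rw [← norm_eq] at h2
    nlinarith [sq_nonneg ‖u‖, n.cast_nonneg (α := ℝ)]
  · have h0 : ∀ t', (∑ t ∈ s, ptP n t (w t)).fs t' =
        if t' ∈ s then (if rt t'.1 = n then (w t').fs t' else 0) else 0 := by
      intro t'
      rw [fs_sum]
      simp only [ptP_apply]
      rw [Finset.sum_ite_eq']
    have h1 := norm_sq_le_tree n (∑ t ∈ s, ptP n t (w t)) (fun t ht => by simp [h0, ht]) (r := s)
      (fun t ht => by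
        by_contra h
        rw [Finsupp.mem_support_iff, h0, if_neg h] at ht
        exact ht rfl)
    refine h1.trans (mul_le_mul hc (Finset.sum_le_sum fun t ht => ?_)
      (Finset.sum_nonneg fun _ _ => sq_nonneg _) (sq_nonneg _))
    rw [h0, if_pos ht]
    split_ifs
    · rw [← sq_abs]
      exact pow_le_pow_left₀ (abs_nonneg _) (abs_le_norm _ _) 2
    · simp
  · refine JE.ext fun t' => ?_
    simp only [ptP_apply]
    split_ifs <;> rfl

theorem reflexive_dual :
    Function.Surjective (NormedSpace.inclusionInDoubleDual ℝ (StrongDual ℝ JE)) := by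
  have hdense : ∀ G : StrongDual ℝ (StrongDual ℝ JE), G ∈
      (LinearMap.range (NormedSpace.inclusionInDoubleDual ℝ JE).toLinearMap).topologicalClosure := by
    intro G
    have := dec_tree.dual.dual.mem_closure
      (LinearMap.range (NormedSpace.inclusionInDoubleDual ℝ JE).toLinearMap) G fun n =>
      (dec_pt n).dual.dual.mem_closure _ G fun t => Submodule.le_topologicalClosure _ (by
        unfold ptP
        split_ifs
        · refine ⟨G (coord t) • ev t, ?_⟩
          ext x
          have : adjt ((coord t).smulRight (ev t)) x = x (ev t) • coord t := by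
            ext u
            simp [mul_comm]
          simp [this, mul_comm]
        · refine ⟨0, ?_⟩
          ext x
          have : adjt (0 : JE →L[ℝ] JE) x = 0 := by
            ext u
            simp
          simp [this])
    have e : adjt (adjt (ContinuousLinearMap.id ℝ JE)) G = G := rfl
    rwa [e] at this
  intro Φ
  refine ⟨Φ.comp (NormedSpace.inclusionInDoubleDual ℝ JE), ?_⟩
  refine ContinuousLinearMap.ext fun G => ?_
  have hcl : IsClosed {G : StrongDual ℝ (StrongDual ℝ JE) |
      G (Φ.comp (NormedSpace.inclusionInDoubleDual ℝ JE)) = Φ G} :=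
    isClosed_eq (ContinuousLinearMap.apply ℝ ℝ
      (Φ.comp (NormedSpace.inclusionInDoubleDual ℝ JE))).continuous Φ.continuous
  have := closure_minimal (s := (LinearMap.range
    (NormedSpace.inclusionInDoubleDual ℝ JE).toLinearMap : Set _)) (by
      rintro _ ⟨u, rfl⟩
      rfl) hcl (hdense G)
  exact this

theorem shrink (x : StrongDual ℝ JE) {η : ℝ} (hη : 0 < η) :
    ∃ s : Finset Nd, ∀ v : JE, (∀ t ∈ s, v.fs t = 0) → |x v| ≤ η * ‖v‖ := by
  classical
  let M : Submodule ℝ (StrongDual ℝ JE) :=
    { carrier := {y | ∃ s : Finset Nd, ∀ v : JE, (∀ t ∈ s, v.fs t = 0) → y v = 0}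
      add_mem' := by
        rintro a b ⟨s, hs⟩ ⟨s', hs'⟩
        refine ⟨s ∪ s', fun v hv => ?_⟩
        simp [hs v fun t ht => hv t (Finset.mem_union_left _ ht),
          hs' v fun t ht => hv t (Finset.mem_union_right _ ht)]
      zero_mem' := ⟨∅, fun v _ => rfl⟩
      smul_mem' := by
        rintro c a ⟨s, hs⟩
        exact ⟨s, fun v hv => by simp [hs v hv]⟩ }
  have := dec_tree.dual.mem_closure M x fun n =>
    (dec_pt n).dual.mem_closure _ x fun t => Submodule.le_topologicalClosure _ (by
      refine ⟨{t}, fun v hv => ?_⟩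
      have : ptP n t v = 0 := JE.ext fun t' => by
        simp [ptP_apply, hv t (Finset.mem_singleton_self t)]
      simp [this])
  have e : adjt (ContinuousLinearMap.id ℝ JE) x = x := rfl
  rw [e] at this
  obtain ⟨y, ⟨s, hs⟩, hy⟩ := Metric.mem_closure_iff.mp this η hη
  refine ⟨s, fun v hv => ?_⟩
  have h1 := (x - y).le_opNorm v
  rw [dist_eq_norm] at hy
  rw [Real.norm_eq_abs, sub_apply, hs v hv, sub_zero] at h1
  exact h1.trans (mul_le_mul_of_nonneg_right hy.le (norm_nonneg _))

end Vale.Agent.P069
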