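import Mathlib
import Vale.Agent.P069.Proj
import Vale.Agent.P069.Defs

open Finset Filter Topology

namespace Vale.Agent.P069

theorem near_of_finite_codim {Y : Type*} [NormedAddCommGroup Y] [NormedSpace ℝ Y]
    (Z : Submodule ℝ Y) (hZ : IsClosed (Z : Set Y))
    [FiniteDimensional ℝ (Y ⧸ Z)] (ε : ℝ) (hε : 0 < ε) :
    ∃ F : Finset (StrongDual ℝ Y), ∃ η > 0, ∀ y, (∀ f ∈ F, |f y| ≤ η) → ∃ z ∈ Z, ‖y - z‖ ≤ ε := by
  classical
  haveI : IsClosed (Z : Set Y) := hZ
  let b := Module.finBasis ℝ (Y ⧸ Z)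
  have hq : Continuous Z.mkQ := continuous_quot_mk
  let f : Fin (Module.finrank ℝ (Y ⧸ Z)) → StrongDual ℝ Y := fun i =>
    ⟨(b.coord i).comp Z.mkQ, ((b.coord i).continuous_of_finiteDimensional).comp hq⟩
  have hf : ∀ i y, f i y = b.repr (Z.mkQ y) i := fun i y => rfl
  choose u hu using fun i => Z.mkQ_surjective (b i)
  obtain ⟨S, hS⟩ : ∃ S, S = ∑ i, ‖u i‖ := ⟨_, rfl⟩
  have hS0 : 0 ≤ S := hS ▸ Finset.sum_nonneg fun i _ => norm_nonneg _
  refine ⟨Finset.univ.image f, ε / (S + 1), by positivity, fun y hy => ?_⟩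
  refine ⟨y - ∑ i, f i y • u i, ?_, ?_⟩
  · have : Z.mkQ (y - ∑ i, f i y • u i) = 0 := by
      rw [map_sub, map_sum]
      simp only [map_smul, hu, hf]
      rw [b.sum_repr, sub_self]
    exact (Submodule.Quotient.mk_eq_zero Z).mp this
  · rw [sub_sub_cancel]
    calc ‖∑ i, f i y • u i‖ ≤ ∑ i, ‖f i y • u i‖ := norm_sum_le _ _
      _ ≤ ∑ i, ε / (S + 1) * ‖u i‖ := by
        refine Finset.sum_le_sum fun i _ => ?_
        rw [norm_smul, Real.norm_eq_abs]
        exact mul_le_mul_of_nonneg_right (hy _ (Finset.mem_image_of_mem _ (Finset.mem_univ i)))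
          (norm_nonneg _)
      _ = ε / (S + 1) * S := by rw [← Finset.mul_sum, ← hS]
      _ ≤ ε := by
        rw [div_mul_eq_mul_div, div_le_iff₀ (by positivity)]
        nlinarith

theorem sum_coord_sq (f : StrongDual ℝ (StrongDual ℝ JE)) (s : Finset Nd) :
    ∑ t ∈ s, f (coord t) ^ 2 ≤ ‖f‖ ^ 2 := by
  obtain ⟨A, hA⟩ : ∃ A, A = Real.sqrt (∑ t ∈ s, f (coord t) ^ 2) := ⟨_, rfl⟩
  have hA0 : 0 ≤ A := hA ▸ Real.sqrt_nonneg _
  have hA2 : A ^ 2 = ∑ t ∈ s, f (coord t) ^ 2 := by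
    rw [hA, Real.sq_sqrt (Finset.sum_nonneg fun _ _ => sq_nonneg _)]
  have h1 : ‖∑ t ∈ s, f (coord t) • coord t‖ ≤ A := by
    refine ContinuousLinearMap.opNorm_le_bound _ hA0 fun u => ?_
    have := cs_bound s (fun t => f (coord t)) (fun t => u.fs t) hA0 (norm_nonneg u) hA2.ge
      (l2_le_jn u s)
    rw [_root_.sum_apply, Real.norm_eq_abs]
    simpa using this
  have h2 : f (∑ t ∈ s, f (coord t) • coord t) = A ^ 2 := by
    rw [hA2, map_sum]
    exact Finset.sum_congr rfl fun t _ => by rw [map_smul, smul_eq_mul, sq]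
  have h3 := f.le_opNorm (∑ t ∈ s, f (coord t) • coord t)
  rw [h2, Real.norm_of_nonneg (sq_nonneg _)] at h3
  have h4 : A ^ 2 ≤ ‖f‖ * A := h3.trans (mul_le_mul_of_nonneg_left h1 (norm_nonneg _))
  rw [← hA2]
  nlinarith [norm_nonneg f, sq_nonneg (A - ‖f‖)]

theorem coord_near (g : ℕ → Nd) (hg : Function.Injective g) (F : Submodule ℝ (StrongDual ℝ JE))
    (hF : IsCof F) {ε : ℝ} (hε : 0 < ε) : ∃ k, ∃ z ∈ F, ‖coord (g k) - z‖ ≤ ε := by
  haveI := hF.2
  obtain ⟨G, η, hη, hG⟩ := near_of_finite_codim F hF.1 ε hε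
  have h1 : ∀ f ∈ G, ∀ᶠ k in atTop, |f (coord (g k))| ≤ η := by
    intro f _
    have hs : Summable fun t => f (coord t) ^ 2 :=
      summable_of_sum_le (fun _ => sq_nonneg _) (sum_coord_sq f)
    have := (hs.comp_injective hg).tendsto_atTop_zero
    filter_upwards [this.eventually (gt_mem_nhds (show (0 : ℝ) < η ^ 2 by positivity))] with k hk
    exact abs_le_of_sq_le_sq (le_of_lt hk) hη.le
  obtain ⟨k, hk⟩ := ((Filter.eventually_all_finset G).mpr h1).exists
  exact ⟨k, hG _ hk⟩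

theorem abs_val_le (u : JE) {S : List ℕ × List ℕ} (hS : S.1 <:+ S.2) : |val u S| ≤ ‖u‖ := by
  have := le_jn u (s := ({()} : Finset Unit)) (f := fun _ => S) ⟨fun _ _ => hS, fun _ _ _ _ _ _ _ => rfl⟩
  rw [Finset.sum_singleton] at this
  exact abs_le_of_sq_le_sq this (norm_nonneg u)

theorem abs_pot_le (u : JE) (b : List ℕ) : |pot u b| ≤ ‖u‖ := by
  have := abs_val_le u (S := ([], b)) List.nil_suffix
  rwa [val, pot_nil, sub_zero] at this

noncomputable def zf (b : List ℕ) : StrongDual ℝ JE :=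
  LinearMap.mkContinuous
    { toFun := fun u => pot u b, map_add' := fun u v => pot_add u v b,
      map_smul' := fun c u => pot_smul c u b }
    1 fun u => by rw [one_mul]; exact abs_pot_le u b

theorem zf_apply (b : List ℕ) (u : JE) : zf b u = pot u b := rfl

theorem norm_zf_le (b : List ℕ) : ‖zf b‖ ≤ 1 := LinearMap.mkContinuous_norm_le _ zero_le_one _

theorem one_le_of_ev (x : StrongDual ℝ JE) (t : Nd) (h : x (ev t) = 1) : 1 ≤ ‖x‖ := by
  have := x.le_opNorm (ev t)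
  rw [h, norm_one] at this
  exact this.trans (mul_le_of_le_one_right (norm_nonneg _) (norm_ev t))

theorem one_le_zf (t : Nd) : 1 ≤ ‖zf t.1‖ := by
  refine one_le_of_ev _ t ?_
  rw [zf_apply, pot_eq (ev t) _ (s := {t}) Finsupp.support_single_subset]
  simp [ev]

theorem one_le_coord (t : Nd) : 1 ≤ ‖coord t‖ := one_le_of_ev _ t (by simp [ev])

theorem zf_cons (k : ℕ) (p : List ℕ) (h : Valid (k :: p)) :
    zf (k :: p) = zf p + coord ⟨_, h⟩ := by
  refine ContinuousLinearMap.ext fun u => ?_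
  rw [add_apply, zf_apply, zf_apply, pot_cons, dif_pos h, coord_apply, add_comm]

theorem not_auc (N : Seminorm ℝ (StrongDual ℝ JE)) (hN : IsEquivNorm N) : ¬ IsAUC N := by
  intro hA
  obtain ⟨c, C, hc, hcC⟩ := hN
  have hC : c ≤ C := by
    let t : Nd := ⟨[0], by simp [Valid]⟩
    have h1 := (hcC (coord t)).1.trans (hcC (coord t)).2
    exact le_of_mul_le_mul_right h1 (lt_of_lt_of_le one_pos (one_le_coord t))
  have hC0 : 0 < C := hc.trans_le hC
  obtain ⟨δ, hδ, hA⟩ := hA (c / (2 * C)) (by positivity)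
  have step : ∀ t : Nd, t.1.length ≤ rt t.1 → ∃ k, N (zf t.1) + δ * c / 2 ≤ N (zf (k :: t.1)) := by
    intro t ht
    have hv : ∀ k, Valid (k :: t.1) := fun k => ⟨by simp, by
      rw [rt_cons k t.2.1, List.length_cons]; omega⟩
    obtain ⟨a, ha⟩ : ∃ a, a = N (zf t.1) := ⟨_, rfl⟩
    have hac : c ≤ a := by
      have := (hcC (zf t.1)).1
      rw [← ha] at this
      nlinarith [one_le_zf t]
    have haC : a ≤ C := by
      have := (hcC (zf t.1)).2
      rw [← ha] at this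
      nlinarith [norm_zf_le t.1]
    have ha0 : 0 < a := hc.trans_le hac
    obtain ⟨F, hF, hy⟩ := hA (a⁻¹ • zf t.1) (by
      rw [map_smul_eq_mul, ← ha, Real.norm_of_nonneg (by positivity), inv_mul_cancel₀ ha0.ne'])
    obtain ⟨k, z, hz, hkz⟩ := coord_near (fun k => ⟨k :: t.1, hv k⟩)
      (fun k k' h => by simpa using congrArg Subtype.val h) F hF
      (ε := min (1 / 2) (δ * c / (2 * C))) (by positivity)
    refine ⟨k, ?_⟩
    obtain ⟨e, he⟩ : ∃ e, e = coord ⟨k :: t.1, hv k⟩ := ⟨_, rfl⟩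
    rw [zf_cons k _ (hv k), ← he, ← ha]
    rw [← he] at hkz
    have he1 : 1 ≤ ‖e‖ := he ▸ one_le_coord _
    have hz1 : 1 / 2 ≤ ‖z‖ := by
      have := norm_sub_norm_le e z
      linarith [hkz.trans (min_le_left _ _)]
    obtain ⟨b, hb⟩ : ∃ b, b = N z := ⟨_, rfl⟩
    have hbc : c / 2 ≤ b := by
      have := (hcC z).1
      rw [← hb] at this
      nlinarith
    have hb0 : 0 < b := by linarith
    have h1 := hy (b⁻¹ • z) (F.smul_mem _ hz) (by
      rw [map_smul_eq_mul, ← hb, Real.norm_of_nonneg (by positivity), inv_mul_cancel₀ hb0.ne'])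
    obtain ⟨l, hl⟩ : ∃ l, l = c / (2 * C) * a / b := ⟨_, rfl⟩
    have hl0 : 0 < l := by rw [hl]; positivity
    have hl1 : l ≤ 1 := by
      rw [hl, div_le_one hb0, div_mul_eq_mul_div, div_le_iff₀ (by positivity)]
      nlinarith
    have e1 : a⁻¹ • zf t.1 + (c / (2 * C)) • b⁻¹ • z =
        ((1 - l) * a⁻¹) • zf t.1 + (l * a⁻¹) • (zf t.1 + z) := by
      have : l * a⁻¹ = c / (2 * C) * b⁻¹ := by rw [hl]; field_simp
      rw [smul_add, smul_smul, ← this]
      module
    have h2 := map_add_le_add N (((1 - l) * a⁻¹) • zf t.1) ((l * a⁻¹) • (zf t.1 + z))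
    rw [← e1, map_smul_eq_mul, map_smul_eq_mul, ← ha,
      Real.norm_of_nonneg (mul_nonneg (by linarith) (by positivity)),
      Real.norm_of_nonneg (by positivity), mul_assoc, inv_mul_cancel₀ ha0.ne'] at h2
    have h3 : δ ≤ l * (a⁻¹ * N (zf t.1 + z) - 1) := by nlinarith
    have h4 : δ ≤ a⁻¹ * N (zf t.1 + z) - 1 := by
      by_contra h
      push Not at h
      rcases le_total 0 (a⁻¹ * N (zf t.1 + z) - 1) with h5 | h5 <;> nlinarith
    have h5 : a + δ * a ≤ N (zf t.1 + z) := by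
      have := mul_le_mul_of_nonneg_left h4 ha0.le
      rw [mul_sub, ← mul_assoc, mul_inv_cancel₀ ha0.ne'] at this
      linarith
    have h6 : N (zf t.1 + z) ≤ N (zf t.1 + e) + N (e - z) := by
      have := map_add_le_add N (zf t.1 + e) (-(e - z))
      rw [map_neg_eq_map] at this
      have e2 : zf t.1 + e + -(e - z) = zf t.1 + z := by abel
      rwa [e2] at this
    have h7 : N (e - z) ≤ δ * c / 2 := by
      refine (hcC _).2.trans ?_
      have := mul_le_mul_of_nonneg_left (hkz.trans (min_le_right _ _)) hC0.le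
      refine this.trans (le_of_eq ?_)
      field_simp
    nlinarith
  obtain ⟨n, hn⟩ := exists_nat_gt (C / (δ * c / 2))
  have main : ∀ m ≤ n, ∃ t : Nd, rt t.1 = n ∧ t.1.length = m + 1 ∧
      m * (δ * c / 2) ≤ N (zf t.1) := by
    intro m
    induction m with
    | zero => exact fun _ => ⟨⟨[n], by simp [Valid]⟩, by simp [rt], by simp, by simp⟩
    | succ m ih =>
      intro hm
      obtain ⟨t, h1, h2, h3⟩ := ih (by omega)
      obtain ⟨k, hk⟩ := step t (by omega)
      refine ⟨⟨k :: t.1, by simp, by rw [rt_cons k t.2.1, List.length_cons]; omega⟩,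
        by rw [rt_cons k t.2.1, h1], by simp [h2], ?_⟩
      push_cast
      linarith
  obtain ⟨t, -, -, h3⟩ := main n le_rfl
  have := (hcC (zf t.1)).2
  rw [div_lt_iff₀ (by positivity)] at hn
  nlinarith [norm_zf_le t.1]

theorem not_findim : ¬ FiniteDimensional ℝ (StrongDual ℝ JE) := by
  intro h
  obtain ⟨k, z, hz, hk⟩ := coord_near (fun k => ⟨[k], by simp [Valid]⟩)
    (fun k k' h => by simpa using congrArg Subtype.val h) ⊥
    ⟨by simp, inferInstance⟩ (ε := 1 / 2) (by norm_num)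
  rw [Submodule.mem_bot] at hz
  rw [hz, sub_zero] at hk
  linarith [one_le_coord ⟨[k], by simp [Valid]⟩]

end Vale.Agent.P069
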