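import Mathlib
import Vale.Agent.P069.NotAUC

open Finset Filter Topology

namespace Vale.Agent.P069

open Classical in
noncomputable def ex (P : List ℕ → Prop) : List ℕ → List ℕ
  | [] => []
  | k :: p => if P (k :: p) then k :: p else ex P p

theorem ex_suffix (P : List ℕ → Prop) (b : List ℕ) : ex P b <:+ b := by
  induction b with
  | nil => exact List.suffix_refl _
  | cons k p ih =>
    rw [ex]
    split_ifs
    · exact List.suffix_refl _
    · exact ih.trans (List.suffix_cons k p)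

theorem ex_max (P : List ℕ → Prop) {a b : List ℕ} (h : a <:+ b) (ha : P a) :
    a <:+ ex P b ∧ P (ex P b) := by
  induction b with
  | nil =>
    rw [List.eq_nil_of_suffix_nil h] at ha ⊢
    exact ⟨List.suffix_refl _, ha⟩
  | cons k p ih =>
    rw [ex]
    split_ifs with hp
    · exact ⟨h, hp⟩
    · rcases List.suffix_cons_iff.mp h with rfl | h'
      · exact absurd ha hp
      · exact ih h'

theorem ex_congr (P : List ℕ → Prop) {a b : List ℕ} (h : a <:+ b) (ha : ex P b <:+ a) :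
    ex P a = ex P b := by
  induction b with
  | nil => rw [List.eq_nil_of_suffix_nil h]
  | cons k p ih =>
    rcases List.suffix_cons_iff.mp h with rfl | h'
    · rfl
    · rw [ex] at ha ⊢
      split_ifs at ha ⊢ with hp
      · have := (ha.trans h').length_le
        simp at this
      · exact ih h' ha

theorem ex_self (P : List ℕ → Prop) {a : List ℕ} (ha : P a) : ex P a = a :=
  (ex_suffix P a).eq_of_length_le (ex_max P (List.suffix_refl a) ha).1.length_le

theorem pot_filt (H : List ℕ → Prop) (hH : ∀ a b, a <:+ b → H b → H a) (u : JE) (b : List ℕ) :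
    pot (filtL (fun t => ¬ H t.1) u) b = pot u b - pot u (ex H b) := by
  induction b with
  | nil => simp [ex, pot_nil]
  | cons k p ih =>
    rw [pot_cons, ih, ex]
    by_cases hp : H (k :: p)
    · rw [if_pos hp, ex_self H (hH _ _ (List.suffix_cons k p) hp)]
      split_ifs
      · rw [filtL_apply, if_neg (not_not.mpr hp)]
        ring
      · ring
    · rw [if_neg hp, pot_cons u]
      split_ifs
      · rw [filtL_apply, if_pos hp]
        ring
      · ring

theorem exists_pot (v : JE) (ψ : List ℕ → ℝ) (h0 : ψ [] = 0)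
    (h : ∀ k p, pot v (k :: p) = pot v p → ψ (k :: p) = ψ p) : ∃ w : JE, ∀ b, pot w b = ψ b := by
  refine ⟨JE.mk (Finsupp.onFinset v.fs.support (fun t => ψ t.1 - ψ t.1.tail) ?_), fun b => ?_⟩
  · rintro ⟨t, ht⟩ hne
    cases t with
    | nil => exact absurd rfl ht.1
    | cons k p =>
      rw [Finsupp.mem_support_iff]
      intro hz
      apply hne
      have := h k p (by rw [pot_cons, dif_pos ht, hz, zero_add])
      simp [this]
  · induction b with
    | nil => rw [pot_nil, h0]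
    | cons k p ih =>
      rw [pot_cons, ih]
      split_ifs with hv
      · simp
      · rw [h k p (by rw [pot_cons, dif_neg hv, zero_add]), zero_add]

theorem sum_sub_le (v : JE) {ι : Type*} {s : Finset ι} {f g : ι → List ℕ × List ℕ} (h : Adm s f)
    (hg : ∀ i ∈ s, (g i).1 <:+ (g i).2 ∧ ∀ t, In t (g i) → In t (f i)) :
    ∑ i ∈ s, val v (g i) ^ 2 ≤ ‖v‖ ^ 2 :=
  le_jn v ⟨fun i hi => (hg i hi).1, fun i hi j hj t h1 h2 =>
    h.2 i hi j hj t ((hg i hi).2 t h1) ((hg j hj).2 t h2)⟩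

theorem In.mono {t a b a' b' : List ℕ} (h : In t (a', b')) (ha : a <:+ a') (hb : b' <:+ b) :
    In t (a, b) :=
  ⟨ha.trans h.1, fun e => h.2.1 (h.1.eq_of_length_le (by
    have := ha.length_le
    have e' : a = t := e
    rw [← e']
    exact this)), h.2.2.trans hb⟩

theorem norm_filt (H : List ℕ → Prop) (h0 : H []) (hH : ∀ a b, a <:+ b → H b → H a) (u : JE) :
    ‖filtL (fun t => ¬ H t.1) u‖ ≤ ‖u‖ := by
  classical
  refine jn_le (norm_nonneg u) fun s hs => le_trans (le_of_eq ?_) (sum_sub_le u hs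
    (g := fun S => if ex H S.2 <:+ S.1 then S else (ex H S.2, S.2)) fun S hS => ?_)
  · refine Finset.sum_congr rfl fun S hS => ?_
    have hS' : S.1 <:+ S.2 := hs.1 S hS
    split_ifs with h
    · simp only [val, pot_filt H hH, ex_congr H hS' h]
      ring
    · have h1 := (List.suffix_or_suffix_of_suffix hS' (ex_suffix H S.2)).resolve_right h
      have h2 := hH _ _ h1 (ex_max H List.nil_suffix h0).2
      simp only [val, pot_filt H hH, ex_self H h2]
      ring
  · have hS' : S.1 <:+ S.2 := hs.1 S hS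
    split_ifs with h
    · exact ⟨hS', fun t ht => ht⟩
    · have h1 := (List.suffix_or_suffix_of_suffix hS' (ex_suffix H S.2)).resolve_right h
      exact ⟨ex_suffix H S.2, fun t ht => ht.mono h1 (List.suffix_refl _)⟩

theorem key_est (H : List ℕ → Prop) (h0 : H []) (hH : ∀ a b, a <:+ b → H b → H a) (u w : JE)
    (τ σ : List ℕ → ℝ) (K : ℝ) (hσ : ∀ h, σ h = 1 ∨ σ h = -1)
    (hu : ∀ b, pot u b = pot u (ex H b)) (hw : ∀ a, H a → pot w a = 0)
    (hw1 : ∀ b, σ (ex H b) * pot w b ≤ 0) (hw2 : ∀ b, |pot w b| ≤ τ (ex H b))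
    (hσ2 : ∀ h, 0 ≤ σ h * (pot u h - pot u (ex (fun a => τ h ≤ |pot u h - pot u a|) h)))
    (hK : ∀ T : Finset (List ℕ), (∀ h ∈ T, H h) → ∑ h ∈ T, τ h ^ 2 ≤ K) :
    ‖u + w‖ ^ 2 ≤ ‖u‖ ^ 2 + ‖w‖ ^ 2 + 2 * K := by
  classical
  have hK0 : 0 ≤ K := by simpa using hK ∅ (by simp)
  have hnn : 0 ≤ ‖u‖ ^ 2 + ‖w‖ ^ 2 + 2 * K := by positivity
  refine (Real.le_sqrt (norm_nonneg _) hnn).mp (jn_le (Real.sqrt_nonneg _) fun F hF => ?_)
  rw [Real.sq_sqrt hnn]
  have main : ∀ S : List ℕ × List ℕ, S.1 <:+ S.2 → ∃ S' : List ℕ × List ℕ,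
      (S'.1 <:+ S'.2 ∧ ∀ t, In t S' → In t S) ∧ val (u + w) S ^ 2 ≤ val u S' ^ 2 + val w S ^ 2 +
        2 * (if In (ex H S.2) S then τ (ex H S.2) ^ 2 else 0) := by
    rintro ⟨a, b⟩ hS
    simp only at hS ⊢
    by_cases h : ex H b <:+ a
    · refine ⟨(a, b), ⟨hS, fun t ht => ht⟩, ?_⟩
      have e : val u (a, b) = 0 := by
        simp only [val]
        rw [hu a, hu b, ex_congr H hS h, sub_self]
      rw [val_add, e, zero_add]
      have : 0 ≤ (if In (ex H b) (a, b) then τ (ex H b) ^ 2 else 0) := by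
        split_ifs
        · exact sq_nonneg _
        · exact le_rfl
      nlinarith
    · have h1 := (List.suffix_or_suffix_of_suffix hS (ex_suffix H b)).resolve_right h
      have h2 := hH _ _ h1 (ex_max H List.nil_suffix h0).2
      have h3 : In (ex H b) (a, b) := ⟨h1, fun e => h (by
        have e' : a = ex H b := e
        rw [← e']), ex_suffix H b⟩
      rw [if_pos h3]
      have e1 : val (u + w) (a, b) = (pot u (ex H b) - pot u a) + pot w b := by
        simp only [val, pot_add]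
        rw [hw a h2, hu b]
        ring
      have e2 : val w (a, b) = pot w b := by
        simp only [val]
        rw [hw a h2, sub_zero]
      have a1 := hw1 b
      have a2 := hw2 b
      have a3 := hσ2 (ex H b)
      have a4 := hσ (ex H b)
      have a5 := ex_suffix H b
      rw [e1, e2]
      clear h h3 e1 e2
      generalize ex H b = h at *
      generalize pot w b = B at *
      have e3 : val u (a, h) = pot u h - pot u a := rfl
      by_cases c1 : 0 ≤ σ h * (pot u h - pot u a)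
      · refine ⟨(a, h), ⟨h1, fun t ht => ht.mono (List.suffix_refl _) a5⟩, ?_⟩
        rw [e3]
        have : (pot u h - pot u a) * B ≤ 0 := by
          rcases a4 with e | e <;> rw [e] at c1 a1 <;> nlinarith
        nlinarith [sq_nonneg (τ h)]
      by_cases c2 : τ h ≤ |pot u h - pot u a|
      · obtain ⟨b1, b2⟩ := ex_max (fun a => τ h ≤ |pot u h - pot u a|) h1 c2
        have b3 := ex_suffix (fun a => τ h ≤ |pot u h - pot u a|) h
        generalize ex (fun a => τ h ≤ |pot u h - pot u a|) h = a' at *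
        refine ⟨(a, a'), ⟨b1, fun t ht => ht.mono (List.suffix_refl _) (b3.trans a5)⟩, ?_⟩
        have e4 : val u (a, a') = pot u a' - pot u a := rfl
        rw [e4]
        have : (pot u h - pot u a + B) ^ 2 ≤ (pot u a' - pot u a) ^ 2 := by
          have a6 := abs_le.mp a2
          rcases a4 with e | e <;> rw [e] at c1 a1 a3
          · rw [abs_of_nonneg (by linarith)] at b2
            nlinarith
          · rw [abs_of_nonpos (by linarith)] at b2
            nlinarith
        nlinarith [sq_nonneg (τ h), sq_nonneg B]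
      · refine ⟨(a, h), ⟨h1, fun t ht => ht.mono (List.suffix_refl _) a5⟩, ?_⟩
        rw [e3]
        have : (pot u h - pot u a) * B ≤ τ h ^ 2 := by
          refine (le_abs_self _).trans ?_
          rw [abs_mul, sq]
          exact mul_le_mul (not_le.mp c2).le a2 (abs_nonneg _) ((abs_nonneg _).trans a2)
        nlinarith
  choose! g hg1 hg2 using main
  have s1 := sum_sub_le u hF (g := g) fun S hS => hg1 S (hF.1 S hS)
  have s2 : ∑ S ∈ F, val w S ^ 2 ≤ ‖w‖ ^ 2 := le_jn w hF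
  have s3 : ∑ S ∈ F, (if In (ex H S.2) S then τ (ex H S.2) ^ 2 else 0) ≤ K := by
    rw [← Finset.sum_filter, ← Finset.sum_image (g := fun S : List ℕ × List ℕ => ex H S.2)
      (f := fun h => τ h ^ 2)]
    · refine hK _ fun h hh => ?_
      obtain ⟨S, -, rfl⟩ := Finset.mem_image.mp hh
      exact (ex_max H List.nil_suffix h0).2
    · intro S hS S' hS' e
      rw [Finset.coe_filter] at hS hS'
      have e' : ex H S.2 = ex H S'.2 := e
      exact hF.2 S hS.1 S' hS'.1 _ hS.2 (e' ▸ hS'.2)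
  have s4 := Finset.sum_le_sum fun S hS => hg2 S (hF.1 S hS)
  rw [Finset.sum_add_distrib, Finset.sum_add_distrib, ← Finset.mul_sum] at s4
  linarith

theorem exists_half {α : Type*} (P : α → Prop) (f : α → ℝ) (h0 : ∀ b, 0 ≤ f b) (M : ℝ)
    (hM : ∀ b, f b ≤ M) (a : α) (ha : P a) : ∃ b, P b ∧ ∀ b', P b' → f b' ≤ 2 * f b := by
  have hb : BddAbove (f '' {b | P b}) := ⟨M, by rintro _ ⟨b, -, rfl⟩; exact hM b⟩
  have hle : ∀ b', P b' → f b' ≤ sSup (f '' {b | P b}) := fun b' h => le_csSup hb ⟨b', h, rfl⟩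
  by_cases h : sSup (f '' {b | P b}) ≤ 0
  · exact ⟨a, ha, fun b' hb' => by linarith [hle b' hb', h0 a]⟩
  · obtain ⟨_, ⟨b, hb1, rfl⟩, hb2⟩ := exists_lt_of_lt_csSup (s := f '' {b | P b})
      ⟨_, a, ha, rfl⟩ (show sSup (f '' {b | P b}) / 2 < sSup (f '' {b | P b}) by linarith)
    exact ⟨b, hb1, fun b' hb' => by linarith [hle b' hb']⟩

theorem split_pair (H : List ℕ → Prop) (h0 : H []) (hH : ∀ a b, a <:+ b → H b → H a) (u v : JE)
    (hu : ∀ b, pot u b = pot u (ex H b)) (hv : ∀ a, H a → pot v a = 0) {s : ℝ} (hs : 0 ≤ s) :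
    ∃ v1 v2 : JE, v1 + v2 = v ∧ (∀ a, H a → pot v1 a = 0) ∧ (∀ a, H a → pot v2 a = 0) ∧
      ‖v1‖ ≤ ‖v‖ ∧ ‖v2‖ ≤ ‖v‖ ∧ ‖u + s • v1‖ ^ 2 ≤ ‖u‖ ^ 2 + 9 * s ^ 2 * ‖v‖ ^ 2 ∧
      ‖u - s • v2‖ ^ 2 ≤ ‖u‖ ^ 2 + 9 * s ^ 2 * ‖v‖ ^ 2 := by
  classical
  have hβ : ∀ h, H h → ∃ b, ex H b = h ∧ ∀ b', ex H b' = h → |pot v b'| ≤ 2 * |pot v b| :=
    fun h hh => exists_half (fun b => ex H b = h) (fun b => |pot v b|) (fun _ => abs_nonneg _) _
      (abs_pot_le v) h (ex_self H hh)
  choose! β hβ1 hβ2 using hβ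
  obtain ⟨τ, hτ⟩ : ∃ τ : List ℕ → ℝ, τ = fun h => 2 * s * |pot v (β h)| := ⟨_, rfl⟩
  have hK : ∀ T : Finset (List ℕ), (∀ h ∈ T, H h) → ∑ h ∈ T, τ h ^ 2 ≤ 4 * s ^ 2 * ‖v‖ ^ 2 := by
    intro T hT
    have h1 := le_jn v (s := T) (f := fun h => (h, β h)) ⟨fun h hh => by
      have := ex_suffix H (β h)
      rwa [hβ1 h (hT h hh)] at this, fun h hh h' hh' t a1 a2 => by
      have b1 := ex_congr H a1.2.2 (by rw [hβ1 h (hT h hh)]; exact a1.1)
      have b2 := ex_congr H a2.2.2 (by rw [hβ1 h' (hT h' hh')]; exact a2.1)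
      simp only at b1 b2
      rw [← hβ1 h (hT h hh), ← b1, b2, hβ1 h' (hT h' hh')]⟩
    have h2 : ∑ h ∈ T, τ h ^ 2 = 4 * s ^ 2 * ∑ h ∈ T, val v (h, β h) ^ 2 := by
      rw [Finset.mul_sum]
      refine Finset.sum_congr rfl fun h hh => ?_
      simp only [hτ, val, hv h (hT h hh), mul_pow, sq_abs]
      ring
    rw [h2]
    exact mul_le_mul_of_nonneg_left h1 (by positivity)
  have hσ : ∀ h, ∃ σ : ℝ, (σ = 1 ∨ σ = -1) ∧
      0 ≤ σ * (pot u h - pot u (ex (fun a => τ h ≤ |pot u h - pot u a|) h)) := by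
    intro h
    rcases le_total 0 (pot u h - pot u (ex (fun a => τ h ≤ |pot u h - pot u a|) h)) with c | c
    · exact ⟨1, Or.inl rfl, by linarith⟩
    · exact ⟨-1, Or.inr rfl, by linarith⟩
  choose σ hσ1 hσ2 using hσ
  have hexH : ∀ b, H (ex H b) := fun b => (ex_max H List.nil_suffix h0).2
  have part : ∀ ρ : List ℕ → ℝ, (∀ h, ρ h = 1 ∨ ρ h = -1) → ∃ w : JE,
      (∀ b, pot w b = ρ (ex H b) * max (ρ (ex H b) * pot v b) 0) ∧ (∀ a, H a → pot w a = 0) ∧
      ‖w‖ ≤ ‖v‖ ∧ (∀ b, 0 ≤ ρ (ex H b) * pot w b) ∧ ∀ b, |pot w b| ≤ |pot v b| := by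
    intro ρ hρ
    obtain ⟨w, hw⟩ := exists_pot v (fun b => ρ (ex H b) * max (ρ (ex H b) * pot v b) 0)
      (by simp [pot_nil]) (fun k p e => by
        by_cases hp : H (k :: p)
        · simp [hv _ hp, hv p (hH _ _ (List.suffix_cons k p) hp)]
        · simp only [ex, if_neg hp, e])
    have hw0 : ∀ a, H a → pot w a = 0 := fun a ha => by simp [hw, hv a ha]
    have lip : ∀ (r x y : ℝ), (r = 1 ∨ r = -1) →
        |r * max (r * x) 0 - r * max (r * y) 0| ≤ |x - y| := by
      intro r x y hr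
      have := abs_max_sub_max_le_abs (r * x) (r * y) 0
      rw [← mul_sub, abs_mul] at this ⊢
      rcases hr with rfl | rfl <;> simpa using this
    have hab : ∀ b, |pot w b| ≤ |pot v b| := fun b => by
      simpa [hw] using lip (ρ (ex H b)) (pot v b) 0 (hρ _)
    refine ⟨w, hw, hw0, norm_le_of_val fun S hS => ?_, fun b => ?_, hab⟩
    · by_cases h : ex H S.2 <:+ S.1
      · simp only [val, hw, ex_congr H hS h]
        exact lip _ _ _ (hρ _)
      · have h1 := (List.suffix_or_suffix_of_suffix hS (ex_suffix H S.2)).resolve_right h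
        have h2 := hH _ _ h1 (hexH _)
        simp only [val, hw0 _ h2, hv _ h2, sub_zero]
        exact hab _
    · rw [hw, ← mul_assoc]
      exact mul_nonneg (mul_self_nonneg _) (le_max_right _ _)
  obtain ⟨v1, p1, p2, p3, p4, p5⟩ := part (fun h => -σ h) fun h => by
    rcases hσ1 h with e | e <;> simp [e]
  obtain ⟨v2, q1, q2, q3, q4, q5⟩ := part σ hσ1
  have hsum : v1 + v2 = v := by
    have : ∀ b, pot (v1 + v2) b = pot v b := by
      intro b
      rw [pot_add, p1, q1]
      rcases hσ1 (ex H b) with e | e <;> rw [e] <;> rcases le_total 0 (pot v b) with c | c <;>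
        simp [c]
    refine JE.ext fun t => ?_
    rw [← val_single, ← val_single, val, val, this, this]
  have fin : ∀ (r : ℝ) (w : JE), |r| = s → ‖w‖ ≤ ‖v‖ → (∀ a, H a → pot w a = 0) →
      (∀ b, σ (ex H b) * (r * pot w b) ≤ 0) → (∀ b, |pot w b| ≤ |pot v b|) →
      ‖u + r • w‖ ^ 2 ≤ ‖u‖ ^ 2 + 9 * s ^ 2 * ‖v‖ ^ 2 := by
    intro r w hr b1 b2 b3 b4
    have := key_est H h0 hH u (r • w) τ σ _ hσ1 hu (fun a ha => by rw [pot_smul, b2 a ha, mul_zero])
      (fun b => by rw [pot_smul]; exact b3 b) (fun b => by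
        rw [pot_smul, abs_mul, hr, hτ]
        have := mul_le_mul_of_nonneg_left ((b4 b).trans (hβ2 _ (hexH b) b rfl)) hs
        simp only
        linarith) hσ2 hK
    rw [norm_smul, Real.norm_eq_abs, hr, mul_pow] at this
    have h2 := mul_le_mul_of_nonneg_left (pow_le_pow_left₀ (norm_nonneg _) b1 2) (sq_nonneg s)
    linarith
  refine ⟨v1, v2, hsum, p2, q2, p3, q3, fin s v1 (abs_of_nonneg hs) p3 p2 (fun b => ?_) p5, ?_⟩
  · have := mul_nonneg hs (p4 b)
    linarith
  · have := fin (-s) v2 (by rw [abs_neg, abs_of_nonneg hs]) q3 q2 (fun b => by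
      have := mul_nonneg hs (q4 b)
      linarith) q5
    rwa [neg_smul, ← sub_eq_add_neg] at this

end Vale.Agent.P069
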