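import Mathlib
import Vale.Agent.P069.AMUC

open Finset Filter Topology

namespace Vale.Agent.P069

theorem eq_sum_ev (w : JE) : w = ∑ t ∈ w.fs.support, w.fs t • ev t := by
  classical
  refine JE.ext fun t => ?_
  rw [fs_sum, Finset.sum_eq_single t]
  · simp [ev]
  · intro b _ hb
    simp [ev, Finsupp.single_apply, hb]
  · intro h
    simpa [ev] using h

theorem final_num {s τ M xu x1 x2 y1 y2 : ℝ} (hs0 : 0 < s) (hs1 : s ≤ 1 / 40) (hs2 : 40 * s ≤ τ)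
    (hu : 1 - s ^ 2 ≤ xu) (d1 : -s ^ 2 ≤ x1) (d2 : x2 ≤ s ^ 2) (hyv : 1 / 2 ≤ y1 + y2)
    (f1 : xu + s * x1 + τ * s * y1 ≤ M * (1 + 5 * s ^ 2))
    (f2 : xu - s * x2 + τ * s * y2 ≤ M * (1 + 5 * s ^ 2)) : 2 * s ^ 2 ≤ M - 1 := by
  have hτ : 0 < τ := by linarith
  have g1 : 20 * s ^ 2 ≤ τ * s * (y1 + y2) := by
    have := mul_le_mul hs2 hyv (by norm_num) hτ.le
    nlinarith
  have g2 : -(s * s ^ 2) ≤ s * x1 := by nlinarith
  have g3 : s * x2 ≤ s * s ^ 2 := by nlinarith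
  have g7 : s * s ^ 2 ≤ s ^ 2 := by nlinarith
  have g4 : 1 + 8 * s ^ 2 ≤ M * (1 + 5 * s ^ 2) := by nlinarith
  by_contra hn
  push Not at hn
  have g5 : M * (1 + 5 * s ^ 2) ≤ (1 + 2 * s ^ 2) * (1 + 5 * s ^ 2) :=
    mul_le_mul_of_nonneg_right (by linarith) (by positivity)
  have g6 : s ^ 2 ≤ 1 / 1600 := by nlinarith
  nlinarith [sq_pos_of_pos hs0]

theorem final_sq {s a b : ℝ} (ha0 : 0 ≤ a) (ha : a ≤ 1) (hb0 : 0 ≤ b) (hb : b ≤ 1) :
    a ^ 2 + 9 * s ^ 2 * b ^ 2 ≤ (1 + 5 * s ^ 2) ^ 2 := by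
  have h1 : a ^ 2 ≤ 1 := pow_le_one₀ ha0 ha
  have h2 : b ^ 2 ≤ 1 := pow_le_one₀ hb0 hb
  have h3 := mul_le_of_le_one_right (show 0 ≤ 9 * s ^ 2 by positivity) h2
  nlinarith [sq_nonneg (s ^ 2)]

theorem amuc : IsAMUC (normSeminorm ℝ (StrongDual ℝ JE)) := by
  classical
  intro τ hτ
  obtain ⟨s, hs⟩ : ∃ s, s = min τ 1 / 40 := ⟨_, rfl⟩
  have hs0 : 0 < s := by rw [hs]; positivity
  have hs1 : s ≤ 1 / 40 := by rw [hs]; linarith [min_le_right τ 1]
  have hs2 : 40 * s ≤ τ := by rw [hs]; linarith [min_le_left τ 1]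
  refine ⟨2 * s ^ 2, by positivity, fun x hx => ?_⟩
  rw [coe_normSeminorm] at hx ⊢
  obtain ⟨u, hu1, hu2⟩ := exists_near_norm x (θ := 1 - s ^ 2) (by nlinarith) (by nlinarith)
  rw [hx] at hu1 hu2
  rw [one_pow, mul_one] at hu2
  obtain ⟨R, hR⟩ := shrink x (η := s ^ 2) (by positivity)
  obtain ⟨H, hHd⟩ : ∃ H : List ℕ → Prop,
      H = fun a => a = [] ∨ ∃ t ∈ R ∪ u.fs.support, a <:+ t.1 := ⟨_, rfl⟩
  have h0 : H [] := by rw [hHd]; exact Or.inl rfl
  have hH : ∀ a b, a <:+ b → H b → H a := by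
    rw [hHd]
    rintro a b hab (rfl | ⟨t, ht, hb⟩)
    · exact Or.inl (List.eq_nil_of_suffix_nil hab)
    · exact Or.inr ⟨t, ht, hab.trans hb⟩
  have hin : ∀ t ∈ R ∪ u.fs.support, H t.1 := by
    rw [hHd]
    exact fun t ht => Or.inr ⟨t, ht, List.suffix_refl _⟩
  have hfin : Set.Finite {t : Nd | H t.1} := by
    refine Set.Finite.subset (Set.Finite.preimage Subtype.val_injective.injOn
      ((R ∪ u.fs.support).biUnion fun t => t.1.tails.toFinset).finite_toSet) ?_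
    intro t ht
    rw [hHd] at ht
    rcases ht with h | ⟨t', h1, h2⟩
    · exact absurd h t.2.1
    · simp only [Set.mem_preimage, Finset.mem_coe, Finset.mem_biUnion, List.mem_toFinset,
        List.mem_tails]
      exact ⟨t', h1, h2⟩
  haveI : Finite {t : Nd | H t.1} := hfin
  let L : StrongDual ℝ JE →L[ℝ] ({t : Nd | H t.1} → ℝ) :=
    ContinuousLinearMap.pi fun t => ContinuousLinearMap.apply ℝ ℝ (ev t.1)
  refine ⟨LinearMap.ker L.toLinearMap, ⟨L.isClosed_ker,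
    (LinearMap.quotKerEquivRange L.toLinearMap).symm.finiteDimensional⟩, fun y hy hy1 => ?_⟩
  have hyH : ∀ w : JE, (∀ t : Nd, ¬ H t.1 → w.fs t = 0) → y w = 0 := by
    intro w hw
    rw [eq_sum_ev w, map_sum]
    refine Finset.sum_eq_zero fun t ht => ?_
    have h1 : H t.1 := by
      by_contra h
      exact Finsupp.mem_support_iff.mp ht (hw t h)
    have h2 : y (ev t) = 0 := congrFun (LinearMap.mem_ker.mp hy) ⟨t, h1⟩
    rw [map_smul, h2, smul_zero]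
  have huH : ∀ t : Nd, ¬ H t.1 → u.fs t = 0 := fun t ht => by
    by_contra h
    exact ht (hin t (Finset.mem_union_right _ (Finsupp.mem_support_iff.mpr h)))
  obtain ⟨v0, hv1, hv2⟩ := exists_near_norm y (θ := 1 / 2) (by norm_num) (by norm_num)
  rw [hy1] at hv1 hv2
  rw [one_pow, mul_one] at hv2
  obtain ⟨v, hv⟩ : ∃ v, v = filtL (fun t => ¬ H t.1) v0 := ⟨_, rfl⟩
  have hvn : ‖v‖ ≤ 1 := hv ▸ (norm_filt H h0 hH v0).trans hv1
  have hyv : 1 / 2 ≤ y v := by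
    have := hyH (v0 - v) fun t ht => by simp [hv, filtL_apply, ht]
    rw [map_sub] at this
    linarith
  have hupot : ∀ b, pot u b = pot u (ex H b) := by
    intro b
    have h1 := pot_filt H hH u b
    have h2 : filtL (fun t => ¬ H t.1) u = 0 := JE.ext fun t => by
      rw [filtL_apply]
      split_ifs with h
      · rfl
      · exact huH t h
    have h3 := pot_smul 0 0 b
    rw [zero_smul, zero_mul] at h3
    rw [h2, h3] at h1
    linarith
  obtain ⟨v1, v2, e, a1, a2, b1, b2, c1, c2⟩ := split_pair H h0 hH u v hupot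
    (fun a ha => by rw [hv, pot_filt H hH, ex_self H ha, sub_self]) hs0.le
  have small : ∀ w : JE, (∀ a, H a → pot w a = 0) → ‖w‖ ≤ ‖v‖ → |x w| ≤ s ^ 2 := by
    intro w hw hw2
    refine (hR w fun t ht => ?_).trans (mul_le_of_le_one_right (sq_nonneg _) (hw2.trans hvn))
    have h1 := hin t (Finset.mem_union_left _ ht)
    rw [← val_single, val, hw _ h1, hw _ (hH _ _ (List.tail_suffix _) h1), sub_zero]
  have d1 := abs_le.mp (small v1 a1 b1)
  have d2 := abs_le.mp (small v2 a2 b2)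
  have hyu : y u = 0 := hyH u huH
  have hb := final_sq (s := s) (norm_nonneg _) hu1 (norm_nonneg _) hvn
  have n1 : ‖u + s • v1‖ ≤ 1 + 5 * s ^ 2 :=
    (pow_le_pow_iff_left₀ (norm_nonneg _) (by positivity) two_ne_zero).mp (c1.trans hb)
  have n2 : ‖u - s • v2‖ ≤ 1 + 5 * s ^ 2 :=
    (pow_le_pow_iff_left₀ (norm_nonneg _) (by positivity) two_ne_zero).mp (c2.trans hb)
  obtain ⟨M, hM⟩ : ∃ M, M = max ‖x + τ • y‖ ‖x - τ • y‖ := ⟨_, rfl⟩
  have m1 : ‖x + τ • y‖ ≤ M := hM ▸ le_max_left _ _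
  have m2 : ‖x - τ • y‖ ≤ M := hM ▸ le_max_right _ _
  have M0 : 0 ≤ M := (norm_nonneg _).trans m1
  have f1 : (x + τ • y) (u + s • v1) ≤ M * (1 + 5 * s ^ 2) :=
    (le_abs_self _).trans (((x + τ • y).le_opNorm _).trans (mul_le_mul m1 n1 (norm_nonneg _) M0))
  have f2 : (x - τ • y) (u - s • v2) ≤ M * (1 + 5 * s ^ 2) :=
    (le_abs_self _).trans (((x - τ • y).le_opNorm _).trans (mul_le_mul m2 n2 (norm_nonneg _) M0))
  rw [← e, map_add] at hyv
  simp only [add_apply, sub_apply, map_add, map_sub, map_smul, smul_apply, smul_eq_mul,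
    hyu] at f1 f2
  show 2 * s ^ 2 ≤ max ‖x + τ • y‖ ‖x - τ • y‖ - 1
  rw [← hM]
  exact final_num hs0 hs1 hs2 hu2 d1.1 d2.2 hyv (by linarith) (by linarith)

end Vale.Agent.P069
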